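import Vale.Agent.P254.SP.H222.Phi12
import Vale.Agent.P254.SP.H674.Q40PW

/-!
P254, (SP_0) line, P4 (helper222): the range `[12,40]`: `PW0` for every `q ∈ [12,40]`.
-/

set_option autoImplicit false

namespace Vale.Agent.P254.SP.H222

open Real Set
open Vale.Agent.P254.S Vale.Agent.P254.SP Vale.Agent.P254.SP38 Vale.Agent.P254.SP151
open Vale.Agent.P254.SP.H674 (br_r1 br_w br_th br_th1)
open Vale.Agent.P254.H156 (F1inst)

theorem log_92 : Real.log (9 / 2) ≤ 1505 / 1000 := by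
  rw [Real.log_le_iff_le_exp (by norm_num)]
  have h1 := Real.exp_one_gt_d9
  have h2 : (1 : ℝ) + 1 / 100 ≤ Real.exp (1 / 100) := by
    have := Real.add_one_le_exp (1 / 100 : ℝ)
    linarith
  have e : Real.exp (1505 / 1000) ^ 2 = Real.exp 1 ^ 3 * Real.exp (1 / 100) := by
    rw [← Real.exp_nat_mul, ← Real.exp_nat_mul, ← Real.exp_add]
    norm_num
  have h3 : (27182818283 / 10000000000 : ℝ) ^ 3 ≤ Real.exp 1 ^ 3 :=
    pow_le_pow_left₀ (by norm_num) (by linarith) 3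
  have h4 : (27182818283 / 10000000000 : ℝ) ^ 3 * (1 + 1 / 100)
      ≤ Real.exp 1 ^ 3 * Real.exp (1 / 100) :=
    mul_le_mul h3 h2 (by norm_num) (by positivity)
  refine le_of_sq_le_sq ?_ (Real.exp_pos _).le
  rw [e]
  refine le_trans ?_ h4
  norm_num

/-- the numbers of the range `[12,40]` -/
noncomputable def m12 : SP127.Mult0 3 where
  c := 9 / 2
  L1 := 9 / 2 * (-102 / 100)
  L2 := 9 / 2 * (-160 / 1000 + 20 / 1000)
  L3 := 9 / 2 * (-95 / 1000 + 20 / 1000)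
  L4 := 9 / 2 * (-28 / 100)
  L5 := 9 / 2 * (1 / 1000)
  L6 := 9 / 2 * (613 / 1000)
  L7 := 9 / 2 * (7 / 200)
  T0 := 9 / 2 * (20 / 1000)
  Mt := 9 / 2 * (731 / 2000)
  Mr := 0
  B4 := 9 / 2 * (17 / 40)
  γ := ![fun _ => 0, fun _ => 9 / 2 * (3 / 20), fun g => 9 / 2 * (17 / 20 * Real.sqrt (F1inst.r' g))]

/-- **the range `[12,40]`** -/
theorem pw0_12 {q : ℝ} (hq : 12 ≤ q) (hq' : q ≤ 40) :
    SP127.PW0 F1inst q (2 / 25) 10 (1 / 1000) (wfam F1inst) bfam m12 where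
  c_pos := by norm_num [m12]
  L6_nonneg := by norm_num [m12]
  ker := by
    intro x y
    have hp : 0 < F1inst.r' x := F1inst.r'_pos x
    have hs : Real.sqrt (F1inst.r' x) ≠ 0 := (Real.sqrt_pos.2 hp).ne'
    have e : 9 / 2 * (17 / 20 * Real.sqrt (F1inst.r' x)) * (ktot F1inst (43 / 100) (1 / 2) x y
        / Real.sqrt (F1inst.r' x)) = 9 / 2 * (17 / 20) * ktot F1inst (43 / 100) (1 / 2) x y := by
      field_simp
    have e2 : (∑ i, m12.γ i x * wfam F1inst i x y) = 9 / 2 * (3 / 20) * ck F1inst x y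
        + 9 / 2 * (17 / 20 * Real.sqrt (F1inst.r' x))
        * (ktot F1inst (43 / 100) (1 / 2) x y / Real.sqrt (F1inst.r' x)) := by
      rw [Fin.sum_univ_three]
      simp [m12, wfam]
    rw [e2, e]
    unfold ktot m12
    ring
  formA := by
    intro g f al k1
    have h := formA_core (S := F1inst.r' g) (f := f) (al := al) (k1 := k1) (F1inst.r'_pos g).le
      (le_of_lt (H156.r1_lt_half g))
    have hh := mul_nonneg (by norm_num : (0 : ℝ) ≤ 9 / 2) h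
    unfold SP127.FormA0 m12
    linarith
  formB := by
    intro g x y ze ka
    have hq0 : 0 < q := by linarith
    have hP := fP_nonneg hq hq' g
    have hs0 : 0 ≤ H721.r1 g := (H721.r1_pos g).le
    have h := formB_core (l6 := 613 / 1000) (γ := 17 / 20 * Real.sqrt (H721.r1 g)) (x := x) (y := y)
      (ze := ze) (k1 := ka 1) (k2 := ka 2) hq0 (by norm_num) (by norm_num) (by norm_num)
      (by norm_num) (by norm_num) (by rw [mul_pow, Real.sq_sqrt hs0]; norm_num) hP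
    have e1 : F1inst.r' g = H721.r1 g := br_r1 g
    have e2 : F1inst.L g = H721.L g := rfl
    have hlog := log_92
    have hmin : min 1 ((q - 1) ^ 2) ≤ (1 : ℝ) := min_le_left _ _
    have hx : 0 ≤ x ^ 2 := sq_nonneg x
    have i1 : 9 / 2 * Real.log (9 / 2) * x ^ 2 ≤ 9 / 2 * (1505 / 1000) * x ^ 2 := by nlinarith
    have i2 : 9 / 2 * (1 / 1000) * (y ^ 2 + min 1 ((q - 1) ^ 2) * x ^ 2)
        ≤ 9 / 2 * (1 / 1000) * (y ^ 2 + x ^ 2) := by nlinarith
    have i3 : (∑ i, m12.γ i g * ka i) = 9 / 2 * (3 / 20) * ka 1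
        + 9 / 2 * (17 / 20 * Real.sqrt (H721.r1 g)) * ka 2 := by
      rw [Fin.sum_univ_three]
      simp [m12, br_r1]
    have i4 : 9 / 2 * 4 * q⁻¹ * ka 1 ^ 2 + 9 / 2 * 5 * q⁻¹ * ka 2 ^ 2
        ≤ ∑ i, (9 / 2 : ℝ) * bfam i * q⁻¹ * ka i ^ 2 := by
      rw [Fin.sum_univ_three]
      simp only [bfam, Matrix.cons_val_zero, Matrix.cons_val_one, Matrix.cons_val]
      have j1 : 0 ≤ 9 / 2 * 30 * q⁻¹ * ka 0 ^ 2 := by positivity
      linarith
    have hh := mul_le_mul_of_nonneg_left h (by norm_num : (0 : ℝ) ≤ 9 / 2)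
    rw [mul_zero] at hh
    unfold SP127.FormB0
    rw [i3, br_w, br_th, br_th1, e1, e2]
    show (0 : ℝ) ≤ -(9 / 2 * y ^ 2)
      + 9 / 2 * ((q - 1) * (H721.wf g * x ^ 2) + H721.wf g * x * ze + H721.th g * x * y)
      + (9 / 2 - 9 / 2 * Real.log (9 / 2)) * x ^ 2 - H721.L g ^ 2 * x ^ 2
      + 9 / 2 * (-102 / 100) * (x * y) + 9 / 2 * (-160 / 1000 + 20 / 1000) * (g * x * y - y ^ 2)
      + 9 / 2 * (-95 / 1000 + 20 / 1000) * (x * ze)
      + 9 / 2 * (-28 / 100) * (g * x ^ 2) - 9 / 2 * (1 / 1000) * q * x ^ 2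
      + 9 / 2 * (20 / 1000) * (g * g * x ^ 2 - g * x * y - 1 * x * (q * x + ze))
      + 9 / 2 * (731 / 2000) * (H721.th g * g * x ^ 2 - H721.th g * x * y
        - (H721.wf g + H721.r1 g ^ 2) * x * (q * x + ze))
      + 0 * (F1inst.r g * g * x ^ 2 - F1inst.r g * x * y - H721.r1 g * x * (q * x + ze))
      - 9 / 2 * (17 / 40) * (H721.r1 g ^ 2 * x * (q * x + ze))
      + 2 * (9 / 2 * (613 / 1000)) * y ^ 2 + x * (9 / 2 * (3 / 20) * ka 1
        + 9 / 2 * (17 / 20 * Real.sqrt (H721.r1 g)) * ka 2)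
      + 9 / 2 * (2 / 25) * q⁻¹ * ze ^ 2 + ∑ i, (9 / 2 : ℝ) * bfam i * q⁻¹ * ka i ^ 2
      - 9 / 2 * (1 / 1000) * (y ^ 2 + min 1 ((q - 1) ^ 2) * x ^ 2)
    linarith

end Vale.Agent.P254.SP.H222
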