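import Vale.Agent.P254.H721.SPFun

/-!
P254, (SP_0) line, global bounds of the one-variable functions without numerics (helper222).

`(T1)` : `v ≤ r' (v + u² + 2)`, i.e. `r'' ≤ 2 r' / u`;   `(T2)` : `r'' ≤ u (1 - 2 r')`;
`r' < v / (v + u²)`.  Here `u = mm`, `v = vv`.
-/

namespace Vale.Agent.P254.SP.H222

open Real Set Filter Topology
open Vale.Agent.P254.H721

/-- (T1) as an upper bound of `t` -/
theorem t_lt_frac (g : ℝ) : t g < L g * ((mm g ^ 2 + 2) / (mm g * (vv g + mm g ^ 2 + 2))) := by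
  have h : ∀ x, HasDerivAt (fun x => L x * ((mm x ^ 2 + 2) / (mm x * (vv x + mm x ^ 2 + 2))) - t x)
      (L x * (mm x ^ 4 * (1 - vv x) + mm x ^ 2 * (2 - vv x - vv x ^ 2) + 4 * vv x ^ 2 + 2 * vv x) /
        (mm x * (vv x + mm x ^ 2 + 2)) ^ 2) x := by
    intro x
    have hv := vv_pos x
    have hm := mm_pos x
    have hd : mm x * (vv x + mm x ^ 2 + 2) ≠ 0 := by positivity
    have hn : HasDerivAt (fun x => mm x ^ 2 + 2) (2 * mm x * (-vv x)) x := by
      have := ((hasDerivAt_mm x).pow 2).add_const 2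
      refine this.congr_deriv ?_
      push_cast
      ring
    have hdd : HasDerivAt (fun x => mm x * (vv x + mm x ^ 2 + 2))
        (-vv x * (vv x + mm x ^ 2 + 2) + mm x * (-(L x * (mm x ^ 2 - vv x)) + 2 * mm x * (-vv x))) x := by
      have h3 := (hasDerivAt_mm x).mul (((hasDerivAt_vv x).add ((hasDerivAt_mm x).pow 2)).add_const 2)
      refine h3.congr_deriv ?_
      simp only [Pi.add_apply, Pi.pow_apply]
      push_cast
      ring
    have h1 := ((hasDerivAt_L x).mul (hn.div hdd hd)).sub (hasDerivAt_t x)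
    refine h1.congr_deriv ?_
    have hLm := L_mul_mm x
    simp only [Pi.div_apply]
    field_simp
    linear_combination (L x * (mm x ^ 2 + 2) * (mm x ^ 2 - vv x)) * hLm
  have h0 : Tendsto (fun x => L x * ((mm x ^ 2 + 2) / (mm x * (vv x + mm x ^ 2 + 2))) - t x) atBot
      (𝓝 0) := by
    have h1 : Tendsto (fun x => L x * ((mm x ^ 2 + 2) / (mm x * (vv x + mm x ^ 2 + 2)))) atBot
        (𝓝 0) := by
      refine tendsto_L_mul (C := 1) fun g hg => ?_
      have h3 := one_le_mm hg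
      have hv := vv_pos g
      have hp : 0 < mm g * (vv g + mm g ^ 2 + 2) := by positivity
      rw [abs_of_pos (by positivity), div_le_one hp]
      nlinarith [mul_pos hv (mm_pos g), mul_nonneg (sub_nonneg.2 h3) (sq_nonneg (mm g))]
    have := h1.sub tendsto_t_bot
    simpa using this
  have := pos_of_deriv_pos' h (fun x => by
    have h1 := L_pos x
    have h2 := vv_pos x
    have h3 := vv_lt_one x
    have h4 := mm_pos x
    have h5 : 0 < mm x ^ 4 * (1 - vv x) + mm x ^ 2 * (2 - vv x - vv x ^ 2) + 4 * vv x ^ 2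
        + 2 * vv x := by
      have a1 : 0 < mm x ^ 4 * (1 - vv x) := by
        have : 0 < 1 - vv x := by linarith
        positivity
      have a2 : 0 < mm x ^ 2 * (2 - vv x - vv x ^ 2) := by
        have : 0 < 2 - vv x - vv x ^ 2 := by nlinarith
        positivity
      positivity
    positivity) h0 g
  linarith

/-- **(T1)** -/
theorem T1 (g : ℝ) : vv g < r1 g * (vv g + mm g ^ 2 + 2) := by
  have h := t_lt_frac g
  have hL := L_pos g
  have hm := mm_pos g
  have hv := vv_pos g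
  have hp : 0 < mm g * (vv g + mm g ^ 2 + 2) := by positivity
  have h2 : r g < (mm g ^ 2 + 2) / (mm g * (vv g + mm g ^ 2 + 2)) := by
    unfold r
    rw [div_lt_iff₀ hL]
    linarith
  rw [lt_div_iff₀ hp] at h2
  rw [r1_eq]
  nlinarith

/-- `r'' u = v - r' (v + u²)` -/
theorem r2_mul (g : ℝ) : r2 g * mm g = vv g - r1 g * (vv g + mm g ^ 2) := by
  rw [r2_eq, r1_eq]
  ring

/-- `r' (v + u²) < v` -/
theorem r1_mul_lt (g : ℝ) : r1 g * (vv g + mm g ^ 2) < vv g := by
  have h1 := r2_mul g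
  have h2 := mul_pos (r2_pos g) (mm_pos g)
  linarith

/-- **(T1)** for `r''` -/
theorem r2_mul_lt (g : ℝ) : r2 g * mm g < 2 * r1 g := by
  have h1 := r2_mul g
  have h2 := T1 g
  nlinarith

/-- **(T2)** -/
theorem T2 (g : ℝ) : r2 g < mm g * (1 - 2 * r1 g) := by
  have h1 := r2_mul g
  have h2 := qv_pos g
  have h3 := r1_lt g
  have hm := mm_pos g
  have h4 : r2 g * mm g < mm g * (1 - 2 * r1 g) * mm g := by
    rw [h1]
    nlinarith [mul_pos h2 (show 0 < 1 - r1 g by linarith)]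
  exact lt_of_mul_lt_mul_right h4 hm.le

/-- `r'' < (v - u² r') ...` : `r'' ≤ v (1 - r') / u` -/
theorem r2_mul_le' (g : ℝ) : r2 g * mm g ≤ vv g * (1 - r1 g) := by
  have h1 := r2_mul g
  have h2 := mul_pos (r1_pos g) (pow_pos (mm_pos g) 2)
  nlinarith

/-- `8 r''² ≤ r' (1/2 - r')` on the left -/
theorem sq_le_left {g : ℝ} (hg : g ≤ -3) : 8 * r2 g ^ 2 ≤ r1 g * (1 / 2 - r1 g) := by
  have hm := @mm_ge g
  have hm3 : 3 ≤ mm g := by linarith
  have h1 := r2_mul_lt g
  have h2 := r1_mul_lt g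
  have h3 := r1_pos g
  have h4 := r2_pos g
  have h5 := vv_lt_one g
  have h6 := vv_pos g
  have h7 : r1 g < 1 / 10 := by
    by_contra hc
    push Not at hc
    nlinarith [mul_nonneg (sub_nonneg.2 hc) (add_pos h6 (pow_pos (mm_pos g) 2)).le,
      mul_nonneg (sub_nonneg.2 hm3) (sub_nonneg.2 hm3)]
  have h8 : r2 g * 3 < 2 * r1 g := by nlinarith
  have h9 : r2 g ^ 2 ≤ (2 / 3 * r1 g) ^ 2 := by
    apply pow_le_pow_left₀ h4.le
    linarith
  nlinarith

/-- `8 r''² ≤ r' (1/2 - r')` on the right, under two monotone bounds -/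
theorem sq_le_right {g : ℝ} (h1 : mm g ≤ 33 / 100) (h2 : 41 / 100 ≤ r1 g) :
    8 * r2 g ^ 2 ≤ r1 g * (1 / 2 - r1 g) := by
  have h3 := T2 g
  have h4 := r2_pos g
  have h5 := r1_lt g
  have h6 := mm_pos g
  have h7 : r2 g ^ 2 ≤ (33 / 100 * (1 - 2 * r1 g)) ^ 2 := by
    apply pow_le_pow_left₀ h4.le
    have : mm g * (1 - 2 * r1 g) ≤ 33 / 100 * (1 - 2 * r1 g) :=
      mul_le_mul_of_nonneg_right h1 (by linarith)
    linarith
  nlinarith

end Vale.Agent.P254.SP.H222
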