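import Vale.Agent.P254.SP.H807.KtA
import Vale.Agent.P254.H721.Env
import Vale.Agent.P254.SP.H222.Tail

/-!
P254, (SP_0) line, kernel `ktot` (helper222): the two one-variable facts `C5`, `C6` of
`SP/H807/KtA.lean` for all real `x`.
-/

set_option autoImplicit false

namespace Vale.Agent.P254.SP.H222

open Real Set Vale.Agent.P254.H721 Vale.Agent.P254.H721.Cert

/-- third derivative of `r` -/
noncomputable def q3 (g : ℝ) : ℝ :=
  r1 g * (1 - g * mm g) + r g * (g * vv g - mm g) + vv g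

theorem hr1 (g : ℝ) : H156.r1 g = r1 g := by
  rw [r1_eq]
  rfl

theorem hr2 (g : ℝ) : H156.r2 g = r2 g := by
  rw [r2_eq, vv_eq]
  have e1 : H156.r2 g = r g * (1 - g * mm g) - mm g := rfl
  have h4 : L g = g + mm g := by
    have := mm_eq g
    linarith
  rw [e1, h4]
  ring

theorem hr3 (g : ℝ) : H156.r3 g = q3 g := by
  have e : H156.r3 g = H156.r1 g * (1 - g * mm g) + r g * (g * vv g - mm g) + vv g := rfl
  rw [e, hr1]
  rfl

/-- `m² r''' = 2 m² r' v - m² (m r'') - (1 - r') (1 - v) (m² - v)` -/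
theorem q3_mul (g : ℝ) : mm g ^ 2 * q3 g = 2 * mm g ^ 2 * (r1 g * vv g)
    - mm g ^ 2 * (r2 g * mm g) - (1 - r1 g) * (1 - vv g) * (mm g ^ 2 - vv g) := by
  have h1 := r1_eq g
  have h2 := vv_eq g
  have h3 := mm_eq g
  have h4 := r2_eq g
  have h5 : L g = g + mm g := by linarith
  unfold q3
  rw [h4, h1, h2, h5]
  ring

def eR3 : Pe := eR1 * (.c 1 1 - .x * .m) + .r * (.x * eV - .m) + eV
def e5 : Pe := .c 9 100 * eV + eR3 * (.c 1 1 - eR1) - eR2 * eR2
def e6 : Pe := .c 9 50 * (eR1 * eV) + eR3 * eR1 - eR2 * eR2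

theorem c5_mid {g : ℝ} (h1 : -5 ≤ g) (h2 : g ≤ 6) :
    0 ≤ 9 / 100 * vv g + q3 g * (1 - r1 g) - r2 g * r2 g := by
  have h := cert2 (e := e5) envOK_nil 64
    [(3, 10), (4, 31), (6, 29), (4, 15), (3, 20), (2, 69), (1, 118)]
    (by decide) (by decide +kernel) (x := g) (by norm_num; linarith) (by norm_num [tot]; linarith)
  simp only [e5, eR3, ev_sub, ev_add, ev_mul, ev_c, ev_eR1, ev_eR2, ev_eV, ev_x, ev_m, ev_r] at h
  unfold q3
  push_cast at h
  linarith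

theorem c6_mid {g : ℝ} (h1 : -5 ≤ g) (h2 : g ≤ 6) :
    0 ≤ 9 / 50 * (r1 g * vv g) + q3 g * r1 g - r2 g * r2 g := by
  have h := cert2 (e := e6) envOK_nil 64
    [(2, 18), (3, 28), (4, 30), (6, 16), (4, 26), (3, 25), (2, 50), (1, 89)]
    (by decide) (by decide +kernel) (x := g) (by norm_num; linarith) (by norm_num [tot]; linarith)
  simp only [e6, eR3, ev_sub, ev_add, ev_mul, ev_c, ev_eR1, ev_eR2, ev_eV, ev_x, ev_m, ev_r] at h
  unfold q3
  push_cast at h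
  linarith

/-! ### left tail -/

theorem vv_left {g : ℝ} (hg : g ≤ -5) : 99 / 100 ≤ vv g := by
  have h : 99 / 100 ≤ vv (-5) := by
    have h := cert2 (e := eV - .c 99 100) envOK_nil 64 [(1, 1)] (by decide) (by decide +kernel)
      (x := -5) (by norm_num) (by norm_num [tot])
    simp only [ev_sub, ev_c, ev_eV] at h
    push_cast at h
    linarith
  exact h.trans (vv_anti.antitone hg)

/-- `-r''' ≤ (1 - v) (1 + r')` -/
theorem neg_q3_le (g : ℝ) : -q3 g ≤ (1 - vv g) * (1 + r1 g) := by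
  have hm := mm_pos g
  have hm2 : 0 < mm g ^ 2 := by positivity
  have h1 := q3_mul g
  have h2 := r2_mul_lt g
  have hv := vv_pos g
  have hv1 := vv_lt_one g
  have h3 := r1_pos g
  have h4 := r1_lt g
  have h5 : 0 ≤ (1 - r1 g) * (1 - vv g) * vv g := by
    have : 0 ≤ 1 - r1 g := by linarith
    have : 0 ≤ 1 - vv g := by linarith
    positivity
  have h6 : mm g ^ 2 * (r2 g * mm g) ≤ mm g ^ 2 * (2 * r1 g) :=
    mul_le_mul_of_nonneg_left h2.le hm2.le
  have h7 : mm g ^ 2 * (-q3 g) ≤ mm g ^ 2 * ((1 - vv g) * (1 + r1 g)) := by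
    have e : mm g ^ 2 * (-q3 g) = -(mm g ^ 2 * q3 g) := by ring
    rw [e, h1]
    nlinarith
  exact le_of_mul_le_mul_left h7 hm2

theorem c5_left {g : ℝ} (hg : g ≤ -5) :
    0 ≤ 9 / 100 * vv g + q3 g * (1 - r1 g) - r2 g * r2 g := by
  have h1 := neg_q3_le g
  have hv := vv_left hg
  have hv1 := vv_lt_one g
  have h3 := r1_pos g
  have h4 := r1_left hg
  have h5 := r2_le_left g
  have h6 := r2_pos g
  have h7 : -q3 g ≤ 11 / 1000 := by nlinarith
  have h8 : r2 g * r2 g ≤ 1 / 100 := by nlinarith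
  nlinarith

theorem c6_left {g : ℝ} (hg : g ≤ -5) :
    0 ≤ 9 / 50 * (r1 g * vv g) + q3 g * r1 g - r2 g * r2 g := by
  have h1 := neg_q3_le g
  have hv := vv_left hg
  have hv1 := vv_lt_one g
  have h3 := r1_pos g
  have h4 := r1_left hg
  have h5 := r2_le_left g
  have h6 := r2_pos g
  have h7 : -q3 g ≤ 11 / 1000 := by nlinarith
  have h8 : r2 g * r2 g ≤ 6 / 5 * r1 g * (6 / 5 * r1 g) :=
    mul_le_mul h5 h5 h6.le (by positivity)
  have h9 : r1 g * (-q3 g) ≤ r1 g * (11 / 1000) := mul_le_mul_of_nonneg_left h7 h3.le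
  have h10 : r1 g * (99 / 100) ≤ r1 g * vv g := mul_le_mul_of_nonneg_left hv h3.le
  nlinarith

/-! ### right tail -/

/-- `(m² - v) (1 - v) ≤ 2 v²` -/
theorem b_le (g : ℝ) : (mm g ^ 2 - vv g) * (1 - vv g) ≤ 2 * vv g ^ 2 := by
  have := EE_pos' g
  nlinarith

theorem core5 {S V b : ℝ} (hS : S < 1 / 2) (hV : 0 < V) (hV1 : V ≤ 1 / 10)
    (hb : b * (1 - V) ≤ 2 * V ^ 2)
    (h : (4662 / 10000 ≤ S ∧ 155 / 10000 ≤ V) ∨ 474 / 1000 ≤ S) :
    (1 - S) * ((V + b) * (V * (1 - 4 * S) - S * b) + (1 - S) * (1 - V) * b)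
      + (V * (1 - 2 * S) - S * b) ^ 2 ≤ 9 / 100 * V * (V + b) := by
  have hS1 : 4662 / 10000 ≤ S := by
    rcases h with h | h
    · exact h.1
    · linarith
  have hc1 : 0 ≤ (1 - S) ^ 2 + V * ((1 - S) * (1 - 5 * S) - (1 - S) ^ 2 - 2 * S * (1 - 2 * S)
      - 9 / 100) := by
    have k1 : -(2 : ℝ) ≤ (1 - S) * (1 - 5 * S) - (1 - S) ^ 2 - 2 * S * (1 - 2 * S)
      - 9 / 100 := by nlinarith
    have k2 : 1 / 4 ≤ (1 - S) ^ 2 := by nlinarith
    have k3 := mul_le_mul_of_nonneg_left k1 hV.le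
    linarith
  have h1 : ((1 - S) ^ 2 + V * ((1 - S) * (1 - 5 * S) - (1 - S) ^ 2 - 2 * S * (1 - 2 * S)
      - 9 / 100)) * (b * (1 - V)) ≤ ((1 - S) ^ 2 + V * ((1 - S) * (1 - 5 * S) - (1 - S) ^ 2
      - 2 * S * (1 - 2 * S) - 9 / 100)) * (2 * V ^ 2) := mul_le_mul_of_nonneg_left hb hc1
  have h2 : (1 - V) * ((1 - S) * (1 - 4 * S) + (1 - 2 * S) ^ 2 - 9 / 100)
      + 2 * ((1 - S) ^ 2 + V * ((1 - S) * (1 - 5 * S) - (1 - S) ^ 2 - 2 * S * (1 - 2 * S)
      - 9 / 100)) ≤ 0 := by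
    rcases h with ⟨-, h⟩ | h
    · nlinarith [mul_nonneg (sub_nonneg.2 h) (sub_nonneg.2 hS.le)]
    · nlinarith
  have h3 : 0 ≤ S * (1 - 2 * S) * b ^ 2 := by
    have : 0 ≤ 1 - 2 * S := by linarith
    have : 0 ≤ S := by linarith
    positivity
  have h4 : 0 ≤ V ^ 2 * -((1 - V) * ((1 - S) * (1 - 4 * S) + (1 - 2 * S) ^ 2 - 9 / 100)
      + 2 * ((1 - S) ^ 2 + V * ((1 - S) * (1 - 5 * S) - (1 - S) ^ 2 - 2 * S * (1 - 2 * S)
      - 9 / 100))) := mul_nonneg (sq_nonneg V) (by linarith)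
  have h5 : 0 ≤ (1 - V) * (S * (1 - 2 * S) * b ^ 2) := mul_nonneg (by linarith) h3
  have h6 : 0 ≤ (1 - V) * (9 / 100 * V * (V + b)
      - ((1 - S) * ((V + b) * (V * (1 - 4 * S) - S * b) + (1 - S) * (1 - V) * b)
      + (V * (1 - 2 * S) - S * b) ^ 2)) := by
    have e : (1 - V) * (9 / 100 * V * (V + b)
      - ((1 - S) * ((V + b) * (V * (1 - 4 * S) - S * b) + (1 - S) * (1 - V) * b)
      + (V * (1 - 2 * S) - S * b) ^ 2)) = (1 - V) * (S * (1 - 2 * S) * b ^ 2)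
      - V ^ 2 * (1 - V) * ((1 - S) * (1 - 4 * S) + (1 - 2 * S) ^ 2 - 9 / 100)
      - ((1 - S) ^ 2 + V * ((1 - S) * (1 - 5 * S) - (1 - S) ^ 2 - 2 * S * (1 - 2 * S)
      - 9 / 100)) * (b * (1 - V)) := by ring
    rw [e]
    nlinarith
  have h7 := nonneg_of_mul_nonneg_right h6 (by linarith)
  linarith

theorem core6 {S V b : ℝ} (hS : S < 1 / 2) (hV : 0 < V) (hV1 : V ≤ 1 / 10)
    (hb : b * (1 - V) ≤ 2 * V ^ 2)
    (h : (4662 / 10000 ≤ S ∧ 155 / 10000 ≤ V) ∨ 474 / 1000 ≤ S) :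
    S * ((V + b) * (V * (1 - 4 * S) - S * b) + (1 - S) * (1 - V) * b)
      + (V * (1 - 2 * S) - S * b) ^ 2 ≤ 9 / 50 * (S * V) * (V + b) := by
  have hS1 : 4662 / 10000 ≤ S := by
    rcases h with h | h
    · exact h.1
    · linarith
  have hc1 : 0 ≤ S * ((1 - S) - 218 / 100 * V) := mul_nonneg (by linarith) (by linarith)
  have h1 : S * ((1 - S) - 218 / 100 * V) * (b * (1 - V))
      ≤ S * ((1 - S) - 218 / 100 * V) * (2 * V ^ 2) := mul_le_mul_of_nonneg_left hb hc1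
  have h2 : 1 - 118 / 100 * S - 2 * S ^ 2 - V * (1 + 118 / 100 * S) ≤ 0 := by
    rcases h with ⟨-, h⟩ | h
    · nlinarith [mul_nonneg (sub_nonneg.2 h) (sub_nonneg.2 hS.le)]
    · nlinarith
  have h4 : 0 ≤ V ^ 2 * -(1 - 118 / 100 * S - 2 * S ^ 2 - V * (1 + 118 / 100 * S)) :=
    mul_nonneg (sq_nonneg V) (by linarith)
  have h6 : 0 ≤ (1 - V) * (9 / 50 * (S * V) * (V + b)
      - (S * ((V + b) * (V * (1 - 4 * S) - S * b) + (1 - S) * (1 - V) * b)
      + (V * (1 - 2 * S) - S * b) ^ 2)) := by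
    have e : (1 - V) * (9 / 50 * (S * V) * (V + b)
      - (S * ((V + b) * (V * (1 - 4 * S) - S * b) + (1 - S) * (1 - V) * b)
      + (V * (1 - 2 * S) - S * b) ^ 2))
      = - V ^ 2 * (1 - V) * (1 - 318 / 100 * S)
        - S * ((1 - S) - 218 / 100 * V) * (b * (1 - V)) := by ring
    rw [e]
    nlinarith
  have h7 := nonneg_of_mul_nonneg_right h6 (by linarith)
  linarith

theorem r1_6 : 4662 / 10000 ≤ r1 6 := by
  have h := cert2 (e := eR1 - .c 4662 10000) envOK_nil 768 [(1, 1)] (by decide) (by decide +kernel)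
    (x := 6) (by norm_num) (by norm_num [tot])
  simp only [ev_sub, ev_c, ev_eR1] at h
  push_cast at h
  linarith

theorem r1_75 : 474 / 1000 ≤ r1 (15 / 2) := by
  have h := cert2 (e := eR1 - .c 474 1000) envOK_nil 864 [(1, 1)] (by decide) (by decide +kernel)
    (x := 15 / 2) (by norm_num) (by norm_num [tot])
  simp only [ev_sub, ev_c, ev_eR1] at h
  push_cast at h
  linarith

theorem vv_75 : 155 / 10000 ≤ vv (15 / 2) := by
  have h := cert2 (e := eV - .c 155 10000) envOK_nil 864 [(1, 1)] (by decide) (by decide +kernel)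
    (x := 15 / 2) (by norm_num) (by norm_num [tot])
  simp only [ev_sub, ev_c, ev_eV] at h
  push_cast at h
  linarith

theorem vv_6 : vv 6 ≤ 1 / 10 := by
  have h := cert2 (e := .c 1 10 - eV) envOK_nil 768 [(1, 1)] (by decide) (by decide +kernel)
    (x := 6) (by norm_num) (by norm_num [tot])
  simp only [ev_sub, ev_c, ev_eV] at h
  push_cast at h
  linarith

theorem right_cases {g : ℝ} (hg : 6 ≤ g) :
    (4662 / 10000 ≤ r1 g ∧ 155 / 10000 ≤ vv g) ∨ 474 / 1000 ≤ r1 g := by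
  rcases le_total g (15 / 2) with h | h
  · exact Or.inl ⟨r1_6.trans (r1_mono.monotone hg), vv_75.trans (vv_anti.antitone h)⟩
  · exact Or.inr (r1_75.trans (r1_mono.monotone h))

theorem c5_right {g : ℝ} (hg : 6 ≤ g) :
    0 ≤ 9 / 100 * vv g + q3 g * (1 - r1 g) - r2 g * r2 g := by
  have hm := mm_pos g
  have hm2 : 0 < mm g ^ 2 := by positivity
  have hv := vv_pos g
  have hv1 : vv g ≤ 1 / 10 := (vv_anti.antitone hg).trans vv_6
  have h := core5 (r1_lt g) hv hv1 (b_le g) (right_cases hg)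
  have h1 := q3_mul g
  have h2 := r2_mul g
  have key : mm g ^ 2 * (9 / 100 * vv g + q3 g * (1 - r1 g) - r2 g * r2 g)
      = 9 / 100 * vv g * (vv g + (mm g ^ 2 - vv g))
        - ((1 - r1 g) * ((vv g + (mm g ^ 2 - vv g)) * (vv g * (1 - 4 * r1 g)
          - r1 g * (mm g ^ 2 - vv g)) + (1 - r1 g) * (1 - vv g) * (mm g ^ 2 - vv g))
          + (vv g * (1 - 2 * r1 g) - r1 g * (mm g ^ 2 - vv g)) ^ 2) := by
    have e : mm g ^ 2 * (9 / 100 * vv g + q3 g * (1 - r1 g) - r2 g * r2 g)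
        = 9 / 100 * vv g * mm g ^ 2 + (mm g ^ 2 * q3 g) * (1 - r1 g)
          - (r2 g * mm g) * (r2 g * mm g) := by ring
    rw [e, h1, h2]
    ring
  have h3 : 0 ≤ mm g ^ 2 * (9 / 100 * vv g + q3 g * (1 - r1 g) - r2 g * r2 g) := by
    rw [key]
    linarith
  exact nonneg_of_mul_nonneg_right h3 hm2

theorem c6_right {g : ℝ} (hg : 6 ≤ g) :
    0 ≤ 9 / 50 * (r1 g * vv g) + q3 g * r1 g - r2 g * r2 g := by
  have hm := mm_pos g
  have hm2 : 0 < mm g ^ 2 := by positivity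
  have hv := vv_pos g
  have hv1 : vv g ≤ 1 / 10 := (vv_anti.antitone hg).trans vv_6
  have h := core6 (r1_lt g) hv hv1 (b_le g) (right_cases hg)
  have h1 := q3_mul g
  have h2 := r2_mul g
  have key : mm g ^ 2 * (9 / 50 * (r1 g * vv g) + q3 g * r1 g - r2 g * r2 g)
      = 9 / 50 * (r1 g * vv g) * (vv g + (mm g ^ 2 - vv g))
        - (r1 g * ((vv g + (mm g ^ 2 - vv g)) * (vv g * (1 - 4 * r1 g)
          - r1 g * (mm g ^ 2 - vv g)) + (1 - r1 g) * (1 - vv g) * (mm g ^ 2 - vv g))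
          + (vv g * (1 - 2 * r1 g) - r1 g * (mm g ^ 2 - vv g)) ^ 2) := by
    have e : mm g ^ 2 * (9 / 50 * (r1 g * vv g) + q3 g * r1 g - r2 g * r2 g)
        = 9 / 50 * (r1 g * vv g) * mm g ^ 2 + (mm g ^ 2 * q3 g) * r1 g
          - (r2 g * mm g) * (r2 g * mm g) := by ring
    rw [e, h1, h2]
    ring
  have h3 : 0 ≤ mm g ^ 2 * (9 / 50 * (r1 g * vv g) + q3 g * r1 g - r2 g * r2 g) := by
    rw [key]
    linarith
  exact nonneg_of_mul_nonneg_right h3 hm2

/-- **`C5`** -/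
theorem c5 (x : ℝ) : H807K.C5 x := by
  have h : 0 ≤ 9 / 100 * vv x + q3 x * (1 - r1 x) - r2 x * r2 x := by
    rcases le_total x (-5) with h | h
    · exact c5_left h
    · rcases le_total x 6 with h2 | h2
      · exact c5_mid h h2
      · exact c5_right h2
  have e : SP448.V x = vv x := rfl
  unfold H807K.C5
  rw [hr1, hr2, hr3, e]
  linarith

/-- **`C6`** -/
theorem c6 (x : ℝ) : H807K.C6 x := by
  have h : 0 ≤ 9 / 50 * (r1 x * vv x) + q3 x * r1 x - r2 x * r2 x := by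
    rcases le_total x (-5) with h | h
    · exact c6_left h
    · rcases le_total x 6 with h2 | h2
      · exact c6_mid h h2
      · exact c6_right h2
  have e : SP448.V x = vv x := rfl
  unfold H807K.C6
  rw [hr1, hr2, hr3, e]
  linarith

end Vale.Agent.P254.SP.H222
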