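import Mathlib

/-!
P254, (SP_0) line, P4 (helper222): the algebra of the range `[12,40]` in mode 0.  Everything is divided
by `c`; the numbers are variables in the form of `(x, y, ζ, κ)`.
-/

set_option autoImplicit false

namespace Vale.Agent.P254.SP.H222

/-- the form in `(f, α, k₁)`, divided by `c`, for the numbers of the range `[12,40]` -/
theorem formA_core {S f al k1 : ℝ} (hS0 : 0 ≤ S) (hS : S ≤ 1 / 2) :
    0 ≤ f ^ 2 - (S * f + k1) ^ 2 - S ^ 2 * al * f + 1 / 1000 * al ^ 2 + 7 / 200 * (al * f)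
      + 17 / 40 * (S ^ 2 * al ^ 2 + S ^ 2 * al * f) - 613 / 1000 * f ^ 2 - 2 / 25 * f ^ 2
      + 10 * k1 ^ 2 := by
  have h1 : 0 ≤ 9 * (k1 - S * f / 9) ^ 2 := by positivity
  obtain ⟨s, hs⟩ : ∃ s, s = S ^ 2 := ⟨_, rfl⟩
  have hs0 : 0 ≤ s := by rw [hs]; positivity
  have hs1 : s ≤ 1 / 4 := by rw [hs]; nlinarith
  have hg : 0 < 1 / 1000 + 17 / 40 * s := by linarith
  have hd : 0 ≤ 4 * (307 / 1000 - 10 / 9 * s) * (1 / 1000 + 17 / 40 * s)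
      - (7 / 200 - 23 / 40 * s) ^ 2 := by
    nlinarith [mul_nonneg hs0 (sub_nonneg.2 hs1)]
  have h2 : 0 ≤ (307 / 1000 - 10 / 9 * s) * f ^ 2 + (7 / 200 - 23 / 40 * s) * (al * f)
      + (1 / 1000 + 17 / 40 * s) * al ^ 2 := by
    have h3 : 0 ≤ 4 * (1 / 1000 + 17 / 40 * s) * ((307 / 1000 - 10 / 9 * s) * f ^ 2
        + (7 / 200 - 23 / 40 * s) * (al * f) + (1 / 1000 + 17 / 40 * s) * al ^ 2) := by
      have e : 4 * (1 / 1000 + 17 / 40 * s) * ((307 / 1000 - 10 / 9 * s) * f ^ 2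
        + (7 / 200 - 23 / 40 * s) * (al * f) + (1 / 1000 + 17 / 40 * s) * al ^ 2)
        = (4 * (307 / 1000 - 10 / 9 * s) * (1 / 1000 + 17 / 40 * s)
          - (7 / 200 - 23 / 40 * s) ^ 2) * f ^ 2
          + ((7 / 200 - 23 / 40 * s) * f + 2 * (1 / 1000 + 17 / 40 * s) * al) ^ 2 := by ring
      rw [e]
      have := mul_nonneg hd (sq_nonneg f)
      positivity
    exact nonneg_of_mul_nonneg_right h3 (by linarith)
  have e : f ^ 2 - (S * f + k1) ^ 2 - S ^ 2 * al * f + 1 / 1000 * al ^ 2 + 7 / 200 * (al * f)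
      + 17 / 40 * (S ^ 2 * al ^ 2 + S ^ 2 * al * f) - 613 / 1000 * f ^ 2 - 2 / 25 * f ^ 2
      + 10 * k1 ^ 2 = ((307 / 1000 - 10 / 9 * s) * f ^ 2 + (7 / 200 - 23 / 40 * s) * (al * f)
      + (1 / 1000 + 17 / 40 * s) * al ^ 2) + 9 * (k1 - S * f / 9) ^ 2 := by
    rw [hs]
    ring
  rw [e]
  linarith

/-- `V = w - μ θ' - β S² + l₃` -/
def VV (μ β l3 w th1 S : ℝ) : ℝ := w - μ * th1 - β * S ^ 2 + l3

/-- the one-variable function; `a` the coefficient of `ck`, `G = γ²` with `γ` the coefficient of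
the third kernel -/
noncomputable def PH (μ β ν b3 b a Y l1 l2 l3 l4 l5 t0 lc c ρ q g w th th1 S L G : ℝ) : ℝ :=
  (q - 1) * w + 1 - lc - L ^ 2 / c + l4 * g + t0 * (g ^ 2 - q) - l5 * q
    + μ * (g * th - q * th1) - β * S ^ 2 * q
    - q * a ^ 2 / (4 * b3) - q * G / (4 * b) - q * VV μ β l3 w th1 S ^ 2 / (4 * ν)
    - ((1 - μ) * th + l1 + l2 * g) ^ 2 / (4 * Y) - ρ

/-- `PH` is affine in `q` -/
theorem PH_affine {μ β ν b3 b a Y l1 l2 l3 l4 l5 t0 lc c ρ q q₀ q₁ g w th th1 S L G : ℝ}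
    (h01 : q₀ < q₁) (h0 : q₀ ≤ q) (h1 : q ≤ q₁)
    (hp0 : 0 ≤ PH μ β ν b3 b a Y l1 l2 l3 l4 l5 t0 lc c ρ q₀ g w th th1 S L G)
    (hp1 : 0 ≤ PH μ β ν b3 b a Y l1 l2 l3 l4 l5 t0 lc c ρ q₁ g w th th1 S L G) :
    0 ≤ PH μ β ν b3 b a Y l1 l2 l3 l4 l5 t0 lc c ρ q g w th th1 S L G := by
  have e : (q₁ - q₀) * PH μ β ν b3 b a Y l1 l2 l3 l4 l5 t0 lc c ρ q g w th th1 S L G
      = (q₁ - q) * PH μ β ν b3 b a Y l1 l2 l3 l4 l5 t0 lc c ρ q₀ g w th th1 S L G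
        + (q - q₀) * PH μ β ν b3 b a Y l1 l2 l3 l4 l5 t0 lc c ρ q₁ g w th th1 S L G := by
    unfold PH
    ring
  have h2 := mul_nonneg (sub_nonneg.2 h1) hp0
  have h3 := mul_nonneg (sub_nonneg.2 h0) hp1
  have h4 : 0 ≤ (q₁ - q₀) * PH μ β ν b3 b a Y l1 l2 l3 l4 l5 t0 lc c ρ q g w th th1 S L G := by
    rw [e]
    linarith
  exact nonneg_of_mul_nonneg_right h4 (sub_pos.2 h01)

/-- the form in `(x, y, ζ, κ₁, κ₂)`, divided by `c` -/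
theorem formB_core {μ β ν b3 b a Y l1 l2 l3 l4 l5 l6 t0 lc c ρ q g w th th1 S L G γ x y ze k1 k2 : ℝ}
    (hq : 0 < q) (hν : 0 < ν) (hb3 : 0 < b3) (hb : 0 < b) (hY : 0 < Y)
    (hYl : Y ≤ 2 * l6 - 1 - l2 - t0 - ρ) (hγ : γ ^ 2 = G)
    (hP : 0 ≤ PH μ β ν b3 b a Y l1 l2 l3 l4 l5 t0 lc c ρ q g w th th1 S L G) :
    0 ≤ -y ^ 2 + ((q - 1) * (w * x ^ 2) + w * x * ze + th * x * y)
      + (1 - lc - L ^ 2 / c) * x ^ 2 + l1 * (x * y) + (l2 + t0) * (g * x * y - y ^ 2)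
      + (l3 + t0) * (x * ze) + l4 * (g * x ^ 2) - l5 * q * x ^ 2
      + t0 * (g * g * x ^ 2 - g * x * y - 1 * x * (q * x + ze))
      + μ * (th * g * x ^ 2 - th * x * y - th1 * x * (q * x + ze))
      - β * (S ^ 2 * x * (q * x + ze)) + 2 * l6 * y ^ 2 + x * (a * k1 + γ * k2)
      + ν * q⁻¹ * ze ^ 2 + b3 * q⁻¹ * k1 ^ 2 + b * q⁻¹ * k2 ^ 2 - ρ * (y ^ 2 + x ^ 2) := by
  have e1 : x * (γ * k2) + b * q⁻¹ * k2 ^ 2
      = -(q * G / (4 * b)) * x ^ 2 + b * q⁻¹ * (k2 + q * γ * x / (2 * b)) ^ 2 := by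
    rw [← hγ]
    field_simp
    ring
  have e0 : x * (a * k1) + b3 * q⁻¹ * k1 ^ 2
      = -(q * a ^ 2 / (4 * b3)) * x ^ 2 + b3 * q⁻¹ * (k1 + q * a * x / (2 * b3)) ^ 2 := by
    field_simp
    ring
  have e2 : VV μ β l3 w th1 S * x * ze + ν * q⁻¹ * ze ^ 2
      = -(q * VV μ β l3 w th1 S ^ 2 / (4 * ν)) * x ^ 2
        + ν * q⁻¹ * (ze + q * VV μ β l3 w th1 S * x / (2 * ν)) ^ 2 := by
    field_simp
    ring
  have e3 : ((1 - μ) * th + l1 + l2 * g) * x * y + Y * y ^ 2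
      = -(((1 - μ) * th + l1 + l2 * g) ^ 2 / (4 * Y)) * x ^ 2
        + Y * (y + ((1 - μ) * th + l1 + l2 * g) * x / (2 * Y)) ^ 2 := by
    field_simp
    ring
  have h0 : 0 ≤ b3 * q⁻¹ * (k1 + q * a * x / (2 * b3)) ^ 2 := by positivity
  have h1 : 0 ≤ b * q⁻¹ * (k2 + q * γ * x / (2 * b)) ^ 2 := by positivity
  have h2 : 0 ≤ ν * q⁻¹ * (ze + q * VV μ β l3 w th1 S * x / (2 * ν)) ^ 2 := by positivity
  have h3 : 0 ≤ Y * (y + ((1 - μ) * th + l1 + l2 * g) * x / (2 * Y)) ^ 2 := by positivity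
  have h4 : 0 ≤ (2 * l6 - 1 - l2 - t0 - ρ - Y) * y ^ 2 := mul_nonneg (by linarith) (sq_nonneg y)
  have h5 := mul_nonneg hP (sq_nonneg x)
  have e4 : VV μ β l3 w th1 S = w - μ * th1 - β * S ^ 2 + l3 := rfl
  have e5 : PH μ β ν b3 b a Y l1 l2 l3 l4 l5 t0 lc c ρ q g w th th1 S L G
    = (q - 1) * w + 1 - lc - L ^ 2 / c + l4 * g + t0 * (g ^ 2 - q) - l5 * q
    + μ * (g * th - q * th1) - β * S ^ 2 * q
    - q * a ^ 2 / (4 * b3) - q * G / (4 * b) - q * VV μ β l3 w th1 S ^ 2 / (4 * ν)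
    - ((1 - μ) * th + l1 + l2 * g) ^ 2 / (4 * Y) - ρ := rfl
  have key : -y ^ 2 + ((q - 1) * (w * x ^ 2) + w * x * ze + th * x * y)
      + (1 - lc - L ^ 2 / c) * x ^ 2 + l1 * (x * y) + (l2 + t0) * (g * x * y - y ^ 2)
      + (l3 + t0) * (x * ze) + l4 * (g * x ^ 2) - l5 * q * x ^ 2
      + t0 * (g * g * x ^ 2 - g * x * y - 1 * x * (q * x + ze))
      + μ * (th * g * x ^ 2 - th * x * y - th1 * x * (q * x + ze))
      - β * (S ^ 2 * x * (q * x + ze)) + 2 * l6 * y ^ 2 + x * (a * k1 + γ * k2)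
      + ν * q⁻¹ * ze ^ 2 + b3 * q⁻¹ * k1 ^ 2 + b * q⁻¹ * k2 ^ 2 - ρ * (y ^ 2 + x ^ 2)
      = PH μ β ν b3 b a Y l1 l2 l3 l4 l5 t0 lc c ρ q g w th th1 S L G * x ^ 2
        + (2 * l6 - 1 - l2 - t0 - ρ - Y) * y ^ 2
        + b3 * q⁻¹ * (k1 + q * a * x / (2 * b3)) ^ 2
        + b * q⁻¹ * (k2 + q * γ * x / (2 * b)) ^ 2
        + ν * q⁻¹ * (ze + q * VV μ β l3 w th1 S * x / (2 * ν)) ^ 2
        + Y * (y + ((1 - μ) * th + l1 + l2 * g) * x / (2 * Y)) ^ 2 := by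
    rw [e5]
    linear_combination e0 + e1 + e2 + e3 - x * ze * e4
  rw [key]
  linarith

end Vale.Agent.P254.SP.H222
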