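import Vale.Agent.P254.H721.Env
import Vale.Agent.P254.SP.H222.Tail
import Vale.Agent.P254.SP.H222.Q12A

/-!
P254, (SP_0) line, P4 (helper222): the two one-variable inequalities of the range `[12,40]` (mode 0),
for all real `g`.
-/

set_option autoImplicit false

namespace Vale.Agent.P254.SP.H222

open Real Set Vale.Agent.P254.H721 Vale.Agent.P254.H721.Cert

/-- the one-variable function of the range `[12,40]` -/
noncomputable def fP (q g : ℝ) : ℝ :=
  PH (731 / 2000) (17 / 40) (2 / 25) 4 5 (3 / 20) (365 / 1000) (-102 / 100) (-160 / 1000)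
    (-95 / 1000) (-28 / 100) (1 / 1000) (20 / 1000) (1505 / 1000) (9 / 2) (1 / 1000)
    q g (wf g) (th g) (wf g + r1 g ^ 2) (r1 g) (L g) (289 / 400 * r1 g)

def eV0 : Pe := .c 1269 2000 * eW - .c 1581 2000 * (eR1 * eR1) - .c 19 200
def eY0 : Pe := .c 1269 2000 * eTh - .c 51 50 - .c 4 25 * .x
def e12 : Pe := .c 3307 500 * eW - .c 4743 500 * (eR1 * eR1) - .c 867 2000 * eR1
  - .c 75 2 * (eV0 * eV0) - .c 50 73 * (eY0 * eY0) - .c 2 9 * (eL * eL)
  + .c 731 2000 * (.x * eTh) - .c 7 25 * .x + .c 1 50 * (.x * .x) - .c 6199 8000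
def e40 : Pe := .c 1219 50 * eW - .c 1581 50 * (eR1 * eR1) - .c 289 200 * eR1
  - .c 125 1 * (eV0 * eV0) - .c 50 73 * (eY0 * eY0) - .c 2 9 * (eL * eL)
  + .c 731 2000 * (.x * eTh) - .c 7 25 * .x + .c 1 50 * (.x * .x) - .c 5609 4000

theorem fP12_eq (g : ℝ) : fP 12 g = 3307 / 500 * wf g - 4743 / 500 * (r1 g * r1 g)
    - 867 / 2000 * r1 g
    - 75 / 2 * ((1269 / 2000 * wf g - 1581 / 2000 * (r1 g * r1 g) - 19 / 200)
      * (1269 / 2000 * wf g - 1581 / 2000 * (r1 g * r1 g) - 19 / 200))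
    - 50 / 73 * ((1269 / 2000 * th g - 51 / 50 - 4 / 25 * g)
      * (1269 / 2000 * th g - 51 / 50 - 4 / 25 * g))
    - 2 / 9 * (L g * L g) + 731 / 2000 * (g * th g) - 7 / 25 * g + 1 / 50 * (g * g)
    - 6199 / 8000 := by
  unfold fP PH VV
  ring

theorem fP40_eq (g : ℝ) : fP 40 g = 1219 / 50 * wf g - 1581 / 50 * (r1 g * r1 g)
    - 289 / 200 * r1 g
    - 125 * ((1269 / 2000 * wf g - 1581 / 2000 * (r1 g * r1 g) - 19 / 200)
      * (1269 / 2000 * wf g - 1581 / 2000 * (r1 g * r1 g) - 19 / 200))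
    - 50 / 73 * ((1269 / 2000 * th g - 51 / 50 - 4 / 25 * g)
      * (1269 / 2000 * th g - 51 / 50 - 4 / 25 * g))
    - 2 / 9 * (L g * L g) + 731 / 2000 * (g * th g) - 7 / 25 * g + 1 / 50 * (g * g)
    - 5609 / 4000 := by
  unfold fP PH VV
  ring

theorem fP12_mid {g : ℝ} (h1 : -5 ≤ g) (h2 : g ≤ 9) : 0 ≤ fP 12 g := by
  have h := cert2 (e := e12) envOK_nil 64 [(6, 94), (4, 83)]
    (by decide) (by decide +kernel) (x := g) (by norm_num; linarith) (by norm_num [tot]; linarith)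
  simp only [e12, eV0, eY0, ev_sub, ev_add, ev_mul, ev_c, ev_eR1, ev_eW, ev_eTh, ev_eL, ev_x] at h
  rw [fP12_eq]
  push_cast at h
  linarith

theorem fP40_mid {g : ℝ} (h1 : -(23 / 4) ≤ g) (h2 : g ≤ 9) : 0 ≤ fP 40 g := by
  have h := cert2 (e := e40) envOK_nil 16
    [(2, 1), (3, 16), (4, 30), (6, 13), (8, 43), (6, 29), (4, 44), (2, 1)]
    (by decide) (by decide +kernel) (x := g) (by norm_num; linarith) (by norm_num [tot]; linarith)
  simp only [e40, eV0, eY0, ev_sub, ev_add, ev_mul, ev_c, ev_eR1, ev_eW, ev_eTh, ev_eL, ev_x] at h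
  rw [fP40_eq]
  push_cast at h
  linarith

/-! ### left tails -/

theorem vv_m5 : 99 / 100 ≤ vv (-5) := by
  have h := cert2 (e := eV - .c 99 100) envOK_nil 64 [(1, 1)] (by decide) (by decide +kernel)
    (x := -5) (by norm_num) (by norm_num [tot])
  simp only [ev_sub, ev_c, ev_eV] at h
  push_cast at h
  linarith

theorem L_m5 : L (-5) ≤ 1 / 1000 := by
  have h := cert2 (e := .c 1 1000 - eL) envOK_nil 64 [(1, 1)] (by decide) (by decide +kernel)
    (x := -5) (by norm_num) (by norm_num [tot])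
  simp only [ev_sub, ev_c, ev_eL] at h
  push_cast at h
  linarith

/-- `r' (g² + 3) ≥ 49/50` -/
theorem r1_left_ge {g : ℝ} (hg : g ≤ -5) : 49 / 50 ≤ r1 g * (g ^ 2 + 3) := by
  have hv : 99 / 100 ≤ vv g := vv_m5.trans (vv_anti.antitone hg)
  have hL : L g ≤ 1 / 1000 := (L_mono.monotone hg).trans L_m5
  have hLp := L_pos g
  have hm : mm g = L g - g := mm_eq g
  have h := T1 g
  have h1 := r1_pos g
  have h2 := vv_lt_one g
  have h3 : mm g ^ 2 ≤ (1 / 1000 - g) ^ 2 := by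
    rw [hm]
    nlinarith
  have h5 := r1_left hg
  have h4 : r1 g * mm g ^ 2 ≤ r1 g * (1 / 1000 - g) ^ 2 := mul_le_mul_of_nonneg_left h3 h1.le
  nlinarith

theorem left_facts {g : ℝ} (hg : g ≤ -5) :
    r1 g ≤ wf g ∧ wf g ≤ 1 / 20 ∧ 0 < th g ∧ th g ≤ 21 / 100 ∧ -(27 / 26) ≤ g * th g ∧
      L g * L g ≤ 1 / 1000000 := by
  have h0 : 0 < r g * r2 g := mul_pos (r_pos g) (r2_pos g)
  have hL : L g ≤ 1 / 1000 := (L_mono.monotone hg).trans L_m5
  have hLp := L_pos g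
  have h5 := r1_left hg
  have h6 := r1_pos g
  refine ⟨?_, wf_left hg, th_pos g, th_left hg, ?_, ?_⟩
  · unfold wf
    linarith
  · have hmm := @mm_ge g
    have hr := r_mul_mm_lt g
    have hrp := r_pos g
    have h7 : r g * (-g) ≤ 1 := by nlinarith
    have h9 : 0 ≤ r g * (-g) := mul_nonneg hrp.le (by linarith)
    unfold th
    nlinarith
  · nlinarith

/-- the common part of the two left tails -/
theorem left_core {S w T g : ℝ} (hS : 0 < S) (hS26 : S * 26 ≤ 1) (hSw : S ≤ w)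
    (hw : w ≤ 1 / 20) (hT : 0 < T) (hT2 : T ≤ 21 / 100) (hgT : -(27 / 26) ≤ g * T) :
    (1269 / 2000 * w - 1581 / 2000 * (S * S) - 19 / 200)
      * (1269 / 2000 * w - 1581 / 2000 * (S * S) - 19 / 200) ≤ 926 / 100000 - 1019 / 10000 * w ∧
    50 / 73 * ((1269 / 2000 * T - 51 / 50 - 4 / 25 * g) * (1269 / 2000 * T - 51 / 50 - 4 / 25 * g))
      ≤ 50 / 73 * ((-(51 / 50) - 4 / 25 * g) * (-(51 / 50) - 4 / 25 * g)) + 157 / 1000 := by
  have hw0 : 0 < w := hS.trans_le hSw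
  constructor
  · obtain ⟨d, hd⟩ : ∃ d, d = 1581 / 2000 * (S * S) := ⟨_, rfl⟩
    have hd0 : 0 ≤ d := by rw [hd]; positivity
    have hSS : S * S ≤ 1 / 676 := by nlinarith
    have hd1 : d ≤ 12 / 10000 := by rw [hd]; linarith
    rw [← hd]
    have h1 : 0 ≤ 19 / 200 + d - 1269 / 2000 * w := by linarith
    have h2 : 19 / 200 + d - 1269 / 2000 * w ≤ 962 / 10000 - 1269 / 2000 * w := by linarith
    have h3 := mul_le_mul h2 h2 h1 (h1.trans h2)
    nlinarith
  · have h1 : (-(51 / 50) - 4 / 25 * g) * T ≤ 4 / 25 * (27 / 26) := by nlinarith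
    have h2 : T * T ≤ 21 / 100 * (21 / 100) := by nlinarith
    nlinarith

theorem fP12_left {g : ℝ} (hg : g ≤ -5) : 0 ≤ fP 12 g := by
  rw [fP12_eq]
  obtain ⟨h1, h2, h3, h4, h5, h6⟩ := left_facts hg
  have h7 := r1_pos g
  have h8 := r1_left hg
  obtain ⟨k1, k2⟩ := left_core h7 h8 h1 h2 h3 h4 h5
  have h9 : r1 g * r1 g ≤ 1 / 26 * r1 g := by nlinarith
  obtain ⟨u, hu, rfl⟩ : ∃ u : ℝ, 0 ≤ u ∧ g = -5 - u := ⟨-5 - g, by linarith, by ring⟩
  nlinarith

theorem fP40_left {g : ℝ} (hg : g ≤ -(23 / 4)) : 0 ≤ fP 40 g := by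
  rw [fP40_eq]
  have hg5 : g ≤ -5 := by linarith
  obtain ⟨h1, h2, h3, h4, h5, h6⟩ := left_facts hg5
  have h7 := r1_pos g
  have h8 := r1_left hg5
  have h10 := r1_left_ge hg5
  obtain ⟨k1, k2⟩ := left_core h7 h8 h1 h2 h3 h4 h5
  have h9 : r1 g * r1 g ≤ 1 / 26 * r1 g := by nlinarith
  obtain ⟨S, hS⟩ : ∃ S, S = r1 g := ⟨_, rfl⟩
  have m1 : 344 / 10 * S - 3809 / 1000 - 5035 / 10000 * g + 246 / 100000 * (g * g)
      ≤ 1219 / 50 * wf g - 1581 / 50 * (r1 g * r1 g)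
    - 289 / 200 * r1 g
    - 125 * ((1269 / 2000 * wf g - 1581 / 2000 * (r1 g * r1 g) - 19 / 200)
      * (1269 / 2000 * wf g - 1581 / 2000 * (r1 g * r1 g) - 19 / 200))
    - 50 / 73 * ((1269 / 2000 * th g - 51 / 50 - 4 / 25 * g)
      * (1269 / 2000 * th g - 51 / 50 - 4 / 25 * g))
    - 2 / 9 * (L g * L g) + 731 / 2000 * (g * th g) - 7 / 25 * g + 1 / 50 * (g * g)
    - 5609 / 4000 := by
    rw [hS]
    nlinarith
  refine le_trans ?_ m1
  rw [← hS] at h10
  obtain ⟨u, hu, rfl⟩ : ∃ u : ℝ, 0 ≤ u ∧ g = -(23 / 4) - u := ⟨-(23 / 4) - g, by linarith, by ring⟩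
  have hp : 0 < (-(23 / 4) - u) ^ 2 + 3 := by positivity
  have h11 : 0 ≤ ((-(23 / 4) - u) ^ 2 + 3) * (344 / 10 * S - 3809 / 1000
      - 5035 / 10000 * (-(23 / 4) - u) + 246 / 100000 * ((-(23 / 4) - u) * (-(23 / 4) - u))) := by
    have h12 : 0 ≤ 344 / 10 * (49 / 50) + ((-(23 / 4) - u) ^ 2 + 3) * (- (3809 / 1000)
      - 5035 / 10000 * (-(23 / 4) - u) + 246 / 100000 * ((-(23 / 4) - u) * (-(23 / 4) - u))) := by
      ring_nf
      positivity
    nlinarith
  exact nonneg_of_mul_nonneg_right h11 hp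

/-! ### right tails -/

/-- `r > g / 2` for `g ≥ 0` -/
theorem half_lt_r {g : ℝ} (hg : 0 ≤ g) : g / 2 < r g := by
  have hd : ∀ x, HasDerivAt (fun x => t x - x * L x / 2) (L x * (vv x + mm x ^ 2) / 2) x := by
    intro x
    have h := (hasDerivAt_t x).sub (((hasDerivAt_id x).mul (hasDerivAt_L x)).div_const 2)
    refine h.congr_deriv ?_
    have h1 := vv_eq x
    have h2 := mm_eq x
    simp only [id]
    rw [h1, h2]
    ring
  have hm : StrictMono (fun x => t x - x * L x / 2) := by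
    refine strictMono_of_hasDerivAt_pos hd fun x => ?_
    have h1 := L_pos x
    have h2 := vv_pos x
    positivity
  have h1 : t 0 - 0 * L 0 / 2 ≤ t g - g * L g / 2 := hm.monotone hg
  have h2 := t_pos 0
  have h3 := r_mul_L g
  have h4 := L_pos g
  have h5 : g / 2 * L g < r g * L g := by
    rw [h3]
    linarith
  exact lt_of_mul_lt_mul_right h5 h4.le

theorem right_facts {g : ℝ} (hg : 9 ≤ g) :
    7395 / 10000 * g ≤ th g ∧ th g ≤ 3 / 4 * g + 44 / 100 ∧ L g * L g ≤ (g + 1 / 9) * (g + 1 / 9) ∧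
      (1269 / 2000 * wf g - 1581 / 2000 * (r1 g * r1 g) - 19 / 200)
      * (1269 / 2000 * wf g - 1581 / 2000 * (r1 g * r1 g) - 19 / 200) ≤ 1725 / 1000000 := by
  have h1 := r1_right hg
  have h2 := r1_lt g
  have h3 := wf_right_ge hg
  have h4 := wf_right_le hg
  have t1 := th_right_le hg
  have hr := half_lt_r (show (0 : ℝ) ≤ g by linarith)
  have hm : mm g ≤ 1 / 9 := by
    have e1 := L_mul_mm g
    have hv := vv_pos g
    have hL := gt_self g
    have hmp := mm_pos g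
    nlinarith
  have hL : L g ≤ g + 1 / 9 := by
    have := mm_eq g
    linarith
  have hLp := L_pos g
  refine ⟨?_, by linarith, ?_, ?_⟩
  · unfold th
    nlinarith
  · nlinarith
  · have a1 : 0 ≤ 1269 / 2000 * wf g - 1581 / 2000 * (r1 g * r1 g) - 19 / 200 := by nlinarith
    have a2 : 1269 / 2000 * wf g - 1581 / 2000 * (r1 g * r1 g) - 19 / 200 ≤ 4152 / 100000 := by
      nlinarith
    nlinarith

/-- the part `.3655 g θ - (50/73) (..)²` on the right tail -/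
theorem right_core {g T : ℝ} (hg : 9 ≤ g) (h1 : 7395 / 10000 * g ≤ T)
    (h2 : T ≤ 3 / 4 * g + 44 / 100) :
    204798 / 1000000 * (g * g) + 43204 / 100000 * g - 7127 / 10000
      ≤ 731 / 2000 * (g * T) - 50 / 73 * ((1269 / 2000 * T - 51 / 50 - 4 / 25 * g)
      * (1269 / 2000 * T - 51 / 50 - 4 / 25 * g)) := by
  obtain ⟨d, hd⟩ : ∃ d, d = T - 7395 / 10000 * g := ⟨_, rfl⟩
  have hd0 : 0 ≤ d := by linarith
  have hd1 : d ≤ 105 / 10000 * g + 44 / 100 := by linarith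
  have hT : T = 7395 / 10000 * g + d := by linarith
  rw [hT]
  have h3 : 0 ≤ d * (9 / 100 * g + 3 / 10 * (105 / 10000 * g + 44 / 100 - d)) :=
    mul_nonneg hd0 (by nlinarith)
  nlinarith

theorem fP12_right {g : ℝ} (hg : 9 ≤ g) : 0 ≤ fP 12 g := by
  rw [fP12_eq]
  obtain ⟨h1, h2, h3, h4⟩ := right_facts hg
  have k1 := right_core hg h1 h2
  have h5 := r1_right hg
  have h6 := r1_lt g
  have h7 := wf_right_ge hg
  have h8 : r1 g * r1 g ≤ 1 / 4 := by nlinarith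
  nlinarith

theorem fP40_right {g : ℝ} (hg : 9 ≤ g) : 0 ≤ fP 40 g := by
  rw [fP40_eq]
  obtain ⟨h1, h2, h3, h4⟩ := right_facts hg
  have k1 := right_core hg h1 h2
  have h5 := r1_right hg
  have h6 := r1_lt g
  have h7 := wf_right_ge hg
  have h8 : r1 g * r1 g ≤ 1 / 4 := by nlinarith
  nlinarith

theorem fP12_nonneg (g : ℝ) : 0 ≤ fP 12 g := by
  rcases le_total g (-5) with h | h
  · exact fP12_left h
  · rcases le_total g 9 with h2 | h2
    · exact fP12_mid h h2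
    · exact fP12_right h2

theorem fP40_nonneg (g : ℝ) : 0 ≤ fP 40 g := by
  rcases le_total g (-(23 / 4)) with h | h
  · exact fP40_left h
  · rcases le_total g 9 with h2 | h2
    · exact fP40_mid h h2
    · exact fP40_right h2

/-- the function of the whole range -/
theorem fP_nonneg {q : ℝ} (h0 : 12 ≤ q) (h1 : q ≤ 40) (g : ℝ) : 0 ≤ fP q g :=
  PH_affine (by norm_num) h0 h1 (fP12_nonneg g) (fP40_nonneg g)

end Vale.Agent.P254.SP.H222
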